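import Vale.Agent.P146.Fin

open MeasureTheory ProbabilityTheory Vale.Agent.P146

/-- Polynomial superconcentration of the Sherrington-Kirkpatrick free energy at every temperature. -/
theorem Vale.Agent.Results.P146.A_poly.result (β : ℝ) (hβ : 0 < β) :
    ∃ C : ℝ, ∀ n : ℕ, 2 ≤ n → MemLp (freeEnergy β n) 2 (disorder n) ∧
      variance (freeEnergy β n) (disorder n) ≤ C * (n : ℝ) ^ (35 / 36 : ℝ) :=
  Vale.Agent.P146.main β hβ
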